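import Vale.Agent.P183.Defs
import Vale.Agent.P183.Wrap
import Vale.Agent.P183.L7.Lattice
import Vale.Agent.P183.L7.Sound4

open Vale.Agent.P183

universe u

/-- (1) The seven element lattice `ExcL7` (`bot < j1 < k < top`, `j1 < m1 < top`, `bot < j2 < k`,
`bot < m2 < top`, no other comparabilities) is the full congruence lattice of a finite algebra.
(2) Ternary parallel sums: if `L 0`, `L 1`, `L 2` are full congruence lattices of finite algebras,
then so is the lattice obtained from their disjoint union by adjoining a new bottom and a new
top. -/
theorem Vale.Agent.Results.P183.A000_Combined.result :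
    Representable ExcL7 ∧
    ∀ (L : Fin 3 → Type u) [∀ i, PartialOrder (L i)], (∀ i, Representable (L i)) →
      Representable (WithBot (WithTop (Σ i, L i))) :=
  ⟨Vale.Agent.P183.L7.main, fun L _ h => parallel_sum_representable L h⟩
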