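import Vale.Agent.P183.Defs
import Vale.Agent.P183.L7.Lattice
import Vale.Agent.P183.L7.Sound4

open Vale.Agent.P183

/-- The seven element lattice `ExcL7` (`bot < j1 < k < top`, `j1 < m1 < top`, `bot < j2 < k`,
`bot < m2 < top`, no other comparabilities) is the full congruence lattice of a finite algebra. -/
theorem Vale.Agent.Results.P183.A00_L7.result : Representable ExcL7 :=
  Vale.Agent.P183.L7.main
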