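import Vale.Agent.P183.Defs
import Vale.Agent.P183.Wrap
import Vale.Agent.P183.Chain

open Vale.Agent.P183

/-- Three chains side by side between a new bottom and a new top are representable.
(1) the seven element lattice `0 < a₁ < a₂ < 1`, `0 < b₁ < b₂ < 1`, `0 < c < 1`
(a hexagon with one more element which is an atom and a coatom);
(2) the seven element lattice `0 < a₁ < a₂ < a₃ < 1`, `0 < b < 1`, `0 < c < 1`;
(3) three chains of arbitrary positive lengths. -/
theorem Vale.Agent.Results.P183.A0_SevenElement.result :
    Representable (WithBot (WithTop (Σ i : Fin 3, Fin (![2, 2, 1] i)))) ∧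
    Representable (WithBot (WithTop (Σ i : Fin 3, Fin (![3, 1, 1] i)))) ∧
    ∀ a b c : ℕ, Representable (WithBot (WithTop (Σ i : Fin 3, Fin (![a + 1, b + 1, c + 1] i)))) := by
  have key : ∀ a b c : ℕ,
      Representable (WithBot (WithTop (Σ i : Fin 3, Fin (![a + 1, b + 1, c + 1] i)))) := by
    intro a b c
    apply parallel_sum_representable
    intro i
    fin_cases i
    · exact chain_representable a
    · exact chain_representable b
    · exact chain_representable c
  exact ⟨key 1 1 0, key 2 0 0, key⟩
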