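import Vale.Agent.P183.Defs
import Vale.Agent.P183.Wrap

open Vale.Agent.P183

universe u

/-- Ternary parallel sums: if `L 0`, `L 1`, `L 2` are (isomorphic to) full congruence lattices
of finite algebras, then so is the lattice obtained from their disjoint union (elements of
different summands incomparable) by adjoining a new bottom and a new top. -/
theorem Vale.Agent.Results.P183.ParallelSum3.result (L : Fin 3 → Type u)
    [∀ i, PartialOrder (L i)] (h : ∀ i, Representable (L i)) :
    Representable (WithBot (WithTop (Σ i, L i))) :=
  parallel_sum_representable L h
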